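import Mathlib
import Crest.Prelude.Def_QuadraticTransport

/-!
# The uniform measure on the cube `[-1,1]^d`: boxes and the reflection `x₁ ↦ -x₁`
-/

set_option autoImplicit false
open MeasureTheory
open scoped ENNReal NNReal
open Crest.AnalysisR.OT

namespace Crest.Agent.OT.Sharp

abbrev EE (d : ℕ) := EuclideanSpace ℝ (Fin d)

/-- the cube -/
abbrev Q (d : ℕ) : Set (EE d) := {x : EuclideanSpace ℝ (Fin d) | ∀ i, |x i| ≤ 1}

/-- closed boxes -/
def box {d : ℕ} (a b : Fin d → ℝ) : Set (EE d) := {x | ∀ i, a i ≤ x i ∧ x i ≤ b i}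

theorem box_eq_preimage {d : ℕ} (a b : Fin d → ℝ) :
    box a b = (WithLp.ofLp : EE d → (Fin d → ℝ)) ⁻¹' (Set.Icc a b) := by
  ext x
  simp only [box, Set.mem_ofPred_eq, Set.mem_preimage, Set.mem_Icc, Pi.le_def]
  exact forall_and

theorem measurableSet_box {d : ℕ} (a b : Fin d → ℝ) : MeasurableSet (box a b) := by
  rw [box_eq_preimage]
  exact (PiLp.volume_preserving_ofLp (Fin d)).measurable measurableSet_Icc

theorem volume_box {d : ℕ} (a b : Fin d → ℝ) :
    volume (box a b) = ∏ i, ENNReal.ofReal (b i - a i) := by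
  rw [box_eq_preimage,
    (PiLp.volume_preserving_ofLp (Fin d)).measure_preimage measurableSet_Icc.nullMeasurableSet,
    Real.volume_Icc_pi]

theorem Q_eq_box (d : ℕ) : Q d = box (fun _ => -1) (fun _ => 1) := by
  ext x
  simp only [box, Set.mem_ofPred_eq, abs_le]

theorem measurableSet_Q (d : ℕ) : MeasurableSet (Q d) := by
  rw [Q_eq_box]; exact measurableSet_box _ _

theorem volume_Q (d : ℕ) : volume (Q d) = ENNReal.ofReal (∏ _i : Fin d, (2:ℝ)) := by
  rw [Q_eq_box, volume_box, ENNReal.ofReal_prod_of_nonneg (fun _ _ => by norm_num)]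
  norm_num

theorem rho_apply {d : ℕ} (s : Set (EE d)) (hs : MeasurableSet s) :
    uniformProbOn (Q d) s = (volume (Q d))⁻¹ * volume (s ∩ Q d) := by
  unfold uniformProbOn
  rw [Measure.smul_apply, Measure.restrict_apply hs, smul_eq_mul]

theorem rho_box {d : ℕ} (a b : Fin d → ℝ) (ha : ∀ i, -1 ≤ a i) (hab : ∀ i, a i ≤ b i)
    (hb : ∀ i, b i ≤ 1) :
    uniformProbOn (Q d) (box a b) = ENNReal.ofReal (∏ i, ((b i - a i) / 2)) := by
  have hsub : box a b ∩ Q d = box a b := by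
    apply Set.inter_eq_left.2
    intro x hx i
    rw [abs_le]
    exact ⟨(ha i).trans (hx i).1, (hx i).2.trans (hb i)⟩
  have hpos : (0:ℝ) < ∏ _i : Fin d, (2:ℝ) := Finset.prod_pos (fun _ _ => by norm_num)
  rw [rho_apply _ (measurableSet_box a b), hsub, volume_Q, volume_box,
    ← ENNReal.ofReal_prod_of_nonneg (fun i _ => sub_nonneg.2 (hab i)),
    ← ENNReal.ofReal_inv_of_pos hpos, ← ENNReal.ofReal_mul (inv_nonneg.2 hpos.le),
    Finset.prod_div_distrib]
  congr 1
  field_simp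

instance isProbabilityMeasure_rho (d : ℕ) : IsProbabilityMeasure (uniformProbOn (Q d)) := by
  constructor
  rw [rho_apply _ MeasurableSet.univ, Set.univ_inter, volume_Q]
  have hpos : (0:ℝ) < ∏ _i : Fin d, (2:ℝ) := Finset.prod_pos (fun _ _ => by norm_num)
  exact ENNReal.inv_mul_cancel (by simp) ENNReal.ofReal_ne_top

theorem rho_compl_Q (d : ℕ) : uniformProbOn (Q d) (Q d)ᶜ = 0 := by
  rw [rho_apply _ (measurableSet_Q d).compl]
  simp

theorem ae_mem_Q (d : ℕ) : ∀ᵐ x ∂(uniformProbOn (Q d)), x ∈ Q d := by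
  rw [ae_iff]
  exact rho_compl_Q d

/-- the box constraining only the two coordinates `i0`, `i1` (inside the cube) -/
def box2 {d : ℕ} (i0 i1 : Fin d) (a0 b0 a1 b1 : ℝ) : Set (EE d) :=
  {x | x ∈ Q d ∧ (a0 ≤ x i0 ∧ x i0 ≤ b0) ∧ (a1 ≤ x i1 ∧ x i1 ≤ b1)}

theorem box2_eq_box {d : ℕ} (i0 i1 : Fin d) (h01 : i0 ≠ i1) (a0 b0 a1 b1 : ℝ)
    (ha0 : -1 ≤ a0) (hb0 : b0 ≤ 1) (ha1 : -1 ≤ a1) (hb1 : b1 ≤ 1) :
    box2 i0 i1 a0 b0 a1 b1 =
      box (fun i => if i = i0 then a0 else if i = i1 then a1 else -1)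
        (fun i => if i = i0 then b0 else if i = i1 then b1 else 1) := by
  ext x
  simp only [box2, box, Set.mem_ofPred_eq]
  constructor
  · rintro ⟨hQ, h0, h1⟩ i
    by_cases hi0 : i = i0
    · subst hi0; simpa using h0
    · by_cases hi1 : i = i1
      · subst hi1; simpa [hi0] using h1
      · simpa [hi0, hi1] using abs_le.1 (hQ i)
  · intro h
    refine ⟨fun i => ?_, by simpa using h i0, by simpa [h01.symm] using h i1⟩
    have := h i
    rw [abs_le]
    by_cases hi0 : i = i0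
    · subst hi0
      simp only [if_true] at this
      exact ⟨ha0.trans this.1, this.2.trans hb0⟩
    · by_cases hi1 : i = i1
      · subst hi1
        simp only [hi0, if_false, if_true] at this
        exact ⟨ha1.trans this.1, this.2.trans hb1⟩
      · simpa [hi0, hi1] using this

theorem measurableSet_box2 {d : ℕ} (i0 i1 : Fin d) (h01 : i0 ≠ i1) (a0 b0 a1 b1 : ℝ)
    (ha0 : -1 ≤ a0) (hb0 : b0 ≤ 1) (ha1 : -1 ≤ a1) (hb1 : b1 ≤ 1) :
    MeasurableSet (box2 i0 i1 a0 b0 a1 b1) := by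
  rw [box2_eq_box i0 i1 h01 a0 b0 a1 b1 ha0 hb0 ha1 hb1]
  exact measurableSet_box _ _

theorem rho_box2 {d : ℕ} (i0 i1 : Fin d) (h01 : i0 ≠ i1) (a0 b0 a1 b1 : ℝ)
    (ha0 : -1 ≤ a0) (hab0 : a0 ≤ b0) (hb0 : b0 ≤ 1) (ha1 : -1 ≤ a1) (hab1 : a1 ≤ b1)
    (hb1 : b1 ≤ 1) :
    uniformProbOn (Q d) (box2 i0 i1 a0 b0 a1 b1) =
      ENNReal.ofReal ((b0 - a0) / 2 * ((b1 - a1) / 2)) := by
  rw [box2_eq_box i0 i1 h01 a0 b0 a1 b1 ha0 hb0 ha1 hb1, rho_box]
  · congr 1
    rw [Finset.prod_eq_mul i0 i1 h01]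
    · simp [h01.symm]
    · rintro c - ⟨hc0, hc1⟩
      simp [hc0, hc1]
    · intro h; exact absurd (Finset.mem_univ _) h
    · intro h; exact absurd (Finset.mem_univ _) h
  · intro i; split_ifs <;> simp [*]
  · intro i; split_ifs <;> simp [*]
  · intro i; split_ifs <;> simp [*]

/-- the reflection negating the coordinate `i1` -/
noncomputable def refl1 {d : ℕ} (i1 : Fin d) : EE d ≃ₗᵢ[ℝ] EE d :=
  LinearIsometryEquiv.piLpCongrRight 2
    (fun i => if i = i1 then LinearIsometryEquiv.neg ℝ else LinearIsometryEquiv.refl ℝ ℝ)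

theorem refl1_apply_same {d : ℕ} (i1 : Fin d) (x : EE d) : refl1 i1 x i1 = - x i1 := by
  simp [refl1, LinearIsometryEquiv.piLpCongrRight_apply]

theorem refl1_apply_ne {d : ℕ} (i1 i : Fin d) (h : i ≠ i1) (x : EE d) : refl1 i1 x i = x i := by
  simp [refl1, LinearIsometryEquiv.piLpCongrRight_apply, h]

theorem refl1_refl1 {d : ℕ} (i1 : Fin d) (x : EE d) : refl1 i1 (refl1 i1 x) = x := by
  ext i
  by_cases h : i = i1
  · subst h; rw [refl1_apply_same, refl1_apply_same, neg_neg]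
  · rw [refl1_apply_ne _ _ h, refl1_apply_ne _ _ h]

theorem refl1_preimage_Q {d : ℕ} (i1 : Fin d) : (refl1 i1) ⁻¹' (Q d) = Q d := by
  ext x
  simp only [Set.mem_preimage, Set.mem_ofPred_eq]
  refine forall_congr' (fun i => ?_)
  by_cases h : i = i1
  · subst h; rw [refl1_apply_same, abs_neg]
  · rw [refl1_apply_ne _ _ h]

theorem measurable_refl1 {d : ℕ} (i1 : Fin d) : Measurable (refl1 i1) :=
  (refl1 i1).continuous.measurable

theorem rho_map_refl1 {d : ℕ} (i1 : Fin d) :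
    (uniformProbOn (Q d)).map (refl1 i1) = uniformProbOn (Q d) := by
  have h := ((refl1 i1).measurePreserving).restrict_preimage (measurableSet_Q d)
  rw [refl1_preimage_Q] at h
  unfold uniformProbOn
  rw [Measure.map_smul, h.map_eq]

end Crest.Agent.OT.Sharp
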