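import Crest.Agent.OT.Sharp.KantPair
import Crest.Agent.OT.Sharp.Cube

/-!
# The three-atom example: pointwise facts
Atoms `yL = -e₀`, `yM h = h e₁`, `yR = e₀`; the middle cell is `|x₀| ≤ c + h x₁`.
-/

set_option autoImplicit false
open MeasureTheory
open scoped ENNReal NNReal
open Crest.AnalysisR.OT

namespace Crest.Agent.OT.Sharp

variable {d : ℕ} (i0 i1 : Fin d)

noncomputable def yL : EE d := EuclideanSpace.single i0 (-1 : ℝ)
noncomputable def yR : EE d := EuclideanSpace.single i0 (1 : ℝ)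
noncomputable def yM (h : ℝ) : EE d := EuclideanSpace.single i1 h

noncomputable def TT (c h : ℝ) (x : EE d) : EE d :=
  if |x i0| ≤ c + h * x i1 then yM i1 h else if x i0 < 0 then yL i0 else yR i0

noncomputable def aa (c h : ℝ) (y : EE d) : ℝ≥0∞ :=
  if y = yM i1 h then ENNReal.ofReal (1 - h ^ 2 - 2 * c)
  else if y = yL i0 then 0 else if y = yR i0 then 0 else ⊤

noncomputable def uu (c h : ℝ) (x : EE d) : ℝ≥0∞ :=
  ‖x - TT i0 i1 c h x‖ₑ ^ 2 + aa i0 i1 c h (TT i0 i1 c h x)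

theorem enorm_sq_eq (v : EE d) : ‖v‖ₑ ^ 2 = ENNReal.ofReal (‖v‖ ^ 2) := by
  rw [ENNReal.ofReal_pow (norm_nonneg v), ofReal_norm]

theorem norm_sub_single_sq (x : EE d) (i : Fin d) (t : ℝ) :
    ‖x - EuclideanSpace.single i t‖ ^ 2 = ‖x‖ ^ 2 - 2 * t * x i + t ^ 2 := by
  rw [norm_sub_sq_real, EuclideanSpace.inner_single_right, PiLp.norm_single]
  simp
  ring

variable {i0 i1}

theorem yL_ne_yR : yL i0 ≠ yR i0 := by
  intro h
  have := congrArg (fun v : EE d => v i0) h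
  simp [yL, yR] at this
  norm_num at this

theorem yL_ne_yM (h01 : i0 ≠ i1) (h : ℝ) : yL i0 ≠ yM i1 h := by
  intro hh
  have := congrArg (fun v : EE d => v i0) hh
  simp [yL, yM, h01] at this

theorem yR_ne_yM (h01 : i0 ≠ i1) (h : ℝ) : yR i0 ≠ yM i1 h := by
  intro hh
  have := congrArg (fun v : EE d => v i0) hh
  simp [yR, yM, h01] at this

theorem K_M (c h : ℝ) (hc : h ^ 2 + 2 * c ≤ 1) (x : EE d) :
    ‖x - yM i1 h‖ₑ ^ 2 + aa i0 i1 c h (yM i1 h)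
      = ENNReal.ofReal (‖x‖ ^ 2 - 2 * h * x i1 + 1 - 2 * c) := by
  rw [aa, if_pos rfl, enorm_sq_eq, ← ENNReal.ofReal_add (by positivity) (by linarith), yM,
    norm_sub_single_sq]
  congr 1
  ring

theorem K_L (h01 : i0 ≠ i1) (c h : ℝ) (x : EE d) :
    ‖x - yL i0‖ₑ ^ 2 + aa i0 i1 c h (yL i0)
      = ENNReal.ofReal (‖x‖ ^ 2 + 2 * x i0 + 1) := by
  rw [aa, if_neg (yL_ne_yM h01 h), if_pos rfl, enorm_sq_eq, add_zero, yL, norm_sub_single_sq]
  congr 1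
  ring

theorem K_R (h01 : i0 ≠ i1) (c h : ℝ) (x : EE d) :
    ‖x - yR i0‖ₑ ^ 2 + aa i0 i1 c h (yR i0)
      = ENNReal.ofReal (‖x‖ ^ 2 - 2 * x i0 + 1) := by
  rw [aa, if_neg (yR_ne_yM h01 h), if_neg yL_ne_yR.symm, if_pos rfl, enorm_sq_eq, add_zero, yR,
    norm_sub_single_sq]
  congr 1
  ring

theorem nonneg_L (x : EE d) : 0 ≤ ‖x‖ ^ 2 + 2 * x i0 + 1 := by
  have := norm_sub_single_sq x i0 (-1)
  nlinarith [sq_nonneg ‖x - EuclideanSpace.single i0 (-1 : ℝ)‖]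

theorem nonneg_R (x : EE d) : 0 ≤ ‖x‖ ^ 2 - 2 * x i0 + 1 := by
  have := norm_sub_single_sq x i0 1
  nlinarith [sq_nonneg ‖x - EuclideanSpace.single i0 (1 : ℝ)‖]

theorem nonneg_M (c h : ℝ) (hc : h ^ 2 + 2 * c ≤ 1) (x : EE d) :
    0 ≤ ‖x‖ ^ 2 - 2 * h * x i1 + 1 - 2 * c := by
  have := norm_sub_single_sq x i1 h
  nlinarith [sq_nonneg ‖x - EuclideanSpace.single i1 h‖]

/-- value of `uu` in the three cells -/
theorem uu_M (c h : ℝ) (hc : h ^ 2 + 2 * c ≤ 1) (x : EE d) (hx : |x i0| ≤ c + h * x i1) :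
    uu i0 i1 c h x = ENNReal.ofReal (‖x‖ ^ 2 - 2 * h * x i1 + 1 - 2 * c) := by
  rw [uu, TT, if_pos hx, K_M c h hc]

theorem uu_L (h01 : i0 ≠ i1) (c h : ℝ) (x : EE d) (hx : ¬ |x i0| ≤ c + h * x i1)
    (hx0 : x i0 < 0) :
    uu i0 i1 c h x = ENNReal.ofReal (‖x‖ ^ 2 + 2 * x i0 + 1) := by
  rw [uu, TT, if_neg hx, if_pos hx0, K_L h01]

theorem uu_R (h01 : i0 ≠ i1) (c h : ℝ) (x : EE d) (hx : ¬ |x i0| ≤ c + h * x i1)
    (hx0 : ¬ x i0 < 0) :
    uu i0 i1 c h x = ENNReal.ofReal (‖x‖ ^ 2 - 2 * x i0 + 1) := by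
  rw [uu, TT, if_neg hx, if_neg hx0, K_R h01]

theorem aa_top (c h : ℝ) (y : EE d) (h1 : y ≠ yM i1 h) (h2 : y ≠ yL i0) (h3 : y ≠ yR i0) :
    aa i0 i1 c h y = ⊤ := by
  rw [aa, if_neg h1, if_neg h2, if_neg h3]

/-- the Kantorovich inequality -/
theorem uu_le (h01 : i0 ≠ i1) (c h : ℝ) (hc : h ^ 2 + 2 * c ≤ 1) (x y : EE d) :
    uu i0 i1 c h x ≤ ‖x - y‖ₑ ^ 2 + aa i0 i1 c h y := by
  by_cases h1 : y = yM i1 h
  · subst h1
    rw [K_M c h hc]
    by_cases hx : |x i0| ≤ c + h * x i1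
    · rw [uu_M c h hc x hx]
    · by_cases hx0 : x i0 < 0
      · rw [uu_L h01 c h x hx hx0]
        apply ENNReal.ofReal_le_ofReal
        rw [abs_of_neg hx0] at hx
        linarith
      · rw [uu_R h01 c h x hx hx0]
        apply ENNReal.ofReal_le_ofReal
        rw [abs_of_nonneg (not_lt.1 hx0)] at hx
        linarith
  by_cases h2 : y = yL i0
  · subst h2
    rw [K_L h01]
    by_cases hx : |x i0| ≤ c + h * x i1
    · rw [uu_M c h hc x hx]
      apply ENNReal.ofReal_le_ofReal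
      have := neg_abs_le (x i0)
      linarith
    · by_cases hx0 : x i0 < 0
      · rw [uu_L h01 c h x hx hx0]
      · rw [uu_R h01 c h x hx hx0]
        apply ENNReal.ofReal_le_ofReal
        linarith
  by_cases h3 : y = yR i0
  · subst h3
    rw [K_R h01]
    by_cases hx : |x i0| ≤ c + h * x i1
    · rw [uu_M c h hc x hx]
      apply ENNReal.ofReal_le_ofReal
      have := le_abs_self (x i0)
      linarith
    · by_cases hx0 : x i0 < 0
      · rw [uu_L h01 c h x hx hx0]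
        apply ENNReal.ofReal_le_ofReal
        linarith
      · rw [uu_R h01 c h x hx hx0]
  rw [aa_top c h y h1 h2 h3]
  simp

theorem uu_ne_top (h01 : i0 ≠ i1) (c h : ℝ) (hc : h ^ 2 + 2 * c ≤ 1) (x : EE d) :
    uu i0 i1 c h x ≠ ⊤ := by
  have := uu_le h01 c h hc x (yR i0)
  rw [K_R h01] at this
  exact ne_top_of_le_ne_top ENNReal.ofReal_ne_top this

/-- strictly inside the middle cell the minimiser is `yM` -/
theorem eq_yM_of_eq (h01 : i0 ≠ i1) (c h : ℝ) (hc : h ^ 2 + 2 * c ≤ 1) (x y : EE d)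
    (hx : |x i0| < c + h * x i1)
    (hy : uu i0 i1 c h x = ‖x - y‖ₑ ^ 2 + aa i0 i1 c h y) : y = yM i1 h := by
  by_contra h1
  rw [uu_M c h hc x hx.le] at hy
  by_cases h2 : y = yL i0
  · subst h2
    rw [K_L h01, ENNReal.ofReal_eq_ofReal_iff (nonneg_M c h hc x) (nonneg_L x)] at hy
    have := neg_abs_le (x i0)
    linarith
  by_cases h3 : y = yR i0
  · subst h3
    rw [K_R h01, ENNReal.ofReal_eq_ofReal_iff (nonneg_M c h hc x) (nonneg_R x)] at hy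
    have := le_abs_self (x i0)
    linarith
  rw [aa_top c h y h1 h2 h3] at hy
  simp at hy

/-- strictly inside the right cell the minimiser is `yR` -/
theorem eq_yR_of_eq (h01 : i0 ≠ i1) (c h : ℝ) (hc : h ^ 2 + 2 * c ≤ 1) (x y : EE d)
    (hx : c + h * x i1 < x i0) (hx0 : 0 < x i0)
    (hy : uu i0 i1 c h x = ‖x - y‖ₑ ^ 2 + aa i0 i1 c h y) : y = yR i0 := by
  by_contra h3
  have hx' : ¬ |x i0| ≤ c + h * x i1 := by
    rw [abs_of_pos hx0]; exact not_le.2 hx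
  rw [uu_R h01 c h x hx' (not_lt.2 hx0.le)] at hy
  by_cases h1 : y = yM i1 h
  · subst h1
    rw [K_M c h hc, ENNReal.ofReal_eq_ofReal_iff (nonneg_R x) (nonneg_M c h hc x)] at hy
    linarith
  by_cases h2 : y = yL i0
  · subst h2
    rw [K_L h01, ENNReal.ofReal_eq_ofReal_iff (nonneg_R x) (nonneg_L x)] at hy
    linarith
  rw [aa_top c h y h1 h2 h3] at hy
  simp at hy

end Crest.Agent.OT.Sharp
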