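import Crest.Agent.OT.Sharp.Meas

/-!
# The three-atom example: reflection, coupling, cost and lower bound
-/

set_option autoImplicit false
open MeasureTheory
open scoped ENNReal NNReal
open Crest.AnalysisR.OT

namespace Crest.Agent.OT.Sharp

variable {d : ℕ} {i0 i1 : Fin d}

theorem refl1_single_same (t : ℝ) :
    refl1 i1 (EuclideanSpace.single i1 t : EE d) = EuclideanSpace.single i1 (-t) := by
  ext j
  by_cases h : j = i1
  · subst h; rw [refl1_apply_same]; simp
  · rw [refl1_apply_ne _ _ h]; simp [h]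

theorem refl1_single_ne (h01 : i0 ≠ i1) (t : ℝ) :
    refl1 i1 (EuclideanSpace.single i0 t : EE d) = EuclideanSpace.single i0 t := by
  ext j
  by_cases h : j = i1
  · subst h; rw [refl1_apply_same]; simp [h01.symm]
  · rw [refl1_apply_ne _ _ h]

theorem TT_neg (h01 : i0 ≠ i1) (c h : ℝ) (x : EE d) :
    TT i0 i1 c (-h) x = refl1 i1 (TT i0 i1 c h (refl1 i1 x)) := by
  unfold TT
  rw [refl1_apply_ne i1 i0 h01, refl1_apply_same]
  have e : h * -x i1 = -h * x i1 := by ring
  rw [e]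
  split_ifs
  · rw [yM, yM, refl1_single_same]
  · rw [yL, refl1_single_ne h01]
  · rw [yR, refl1_single_ne h01]

theorem map_TT_neg (h01 : i0 ≠ i1) (c h : ℝ) :
    (uniformProbOn (Q d)).map (TT i0 i1 c (-h))
      = ((uniformProbOn (Q d)).map (TT i0 i1 c h)).map (refl1 i1) := by
  rw [Measure.map_map (measurable_refl1 i1) (measurable_TT c h)]
  conv_rhs => rw [← rho_map_refl1 i1]
  rw [Measure.map_map ((measurable_refl1 i1).comp (measurable_TT c h)) (measurable_refl1 i1)]
  congr 1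
  funext x
  exact TT_neg h01 c h x

/-- the cheap coupling -/
noncomputable def cpl (i0 i1 : Fin d) (c : ℝ) : Measure (EE d × EE d) :=
  ((uniformProbOn (Q d)).map (TT i0 i1 c c)).map (fun y => (refl1 i1 y, y))

theorem measurable_pairR : Measurable (fun y : EE d => (refl1 i1 y, y)) :=
  (measurable_refl1 i1).prodMk measurable_id

theorem isPairCoupling_cpl (h01 : i0 ≠ i1) (c : ℝ) :
    IsPairCoupling ((uniformProbOn (Q d)).map (TT i0 i1 c (-c)))
      ((uniformProbOn (Q d)).map (TT i0 i1 c c)) (cpl i0 i1 c) := by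
  constructor
  · rw [cpl, Measure.map_map measurable_fst measurable_pairR, map_TT_neg h01]
    rfl
  · rw [cpl, Measure.map_map measurable_snd measurable_pairR]
    exact Measure.map_id

theorem quadCost_cpl_eq (c : ℝ) :
    quadCost (cpl i0 i1 c)
      = ∫⁻ x, ‖refl1 i1 (TT i0 i1 c c x) - TT i0 i1 c c x‖ₑ ^ 2 ∂(uniformProbOn (Q d)) := by
  have hm : Measurable (fun p : EE d × EE d => ‖p.1 - p.2‖ₑ ^ 2) :=
    ((measurable_fst.sub measurable_snd).enorm).pow_const 2
  rw [quadCost, cpl, lintegral_map hm measurable_pairR]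
  exact lintegral_map (hm.comp (measurable_pairR (i1 := i1))) (measurable_TT c c)

theorem quadCost_cpl_le (h01 : i0 ≠ i1) (c : ℝ) (hc0 : 0 < c) (hc : c ≤ 1 / 8) :
    quadCost (cpl i0 i1 c) ≤ ENNReal.ofReal (8 * c ^ 3) := by
  rw [quadCost_cpl_eq]
  have hB : MeasurableSet (box2 i0 i1 (-(2 * c)) (2 * c) (-1) 1) :=
    measurableSet_box2 i0 i1 h01 _ _ _ _ (by linarith) (by linarith) (by norm_num) (by norm_num)
  calc ∫⁻ x, ‖refl1 i1 (TT i0 i1 c c x) - TT i0 i1 c c x‖ₑ ^ 2 ∂(uniformProbOn (Q d))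
      ≤ ∫⁻ x, (box2 i0 i1 (-(2 * c)) (2 * c) (-1) 1).indicator
          (fun _ => ENNReal.ofReal (4 * c ^ 2)) x ∂(uniformProbOn (Q d)) := by
        apply lintegral_mono_ae
        filter_upwards [ae_mem_Q d] with x hx
        unfold TT
        split_ifs with h1 h2
        · have hx1 := abs_le.1 (hx i1)
          have hmem : x ∈ box2 i0 i1 (-(2 * c)) (2 * c) (-1) 1 := by
            refine ⟨hx, abs_le.1 (h1.trans ?_), hx1⟩
            nlinarith [hx1.2]
          rw [Set.indicator_of_mem hmem, yM, refl1_single_same, enorm_sq_eq, norm_sub_single_sq]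
          apply ENNReal.ofReal_le_ofReal
          rw [PiLp.norm_single]
          simp
          nlinarith
        · rw [yL, refl1_single_ne h01]; simp
        · rw [yR, refl1_single_ne h01]; simp
    _ = ENNReal.ofReal (4 * c ^ 2) * uniformProbOn (Q d) (box2 i0 i1 (-(2 * c)) (2 * c) (-1) 1) :=
        lintegral_indicator_const hB _
    _ = ENNReal.ofReal (8 * c ^ 3) := by
        rw [rho_box2 i0 i1 h01 _ _ _ _ (by linarith) (by linarith) (by linarith) (by norm_num)
          (by norm_num) (by norm_num), ← ENNReal.ofReal_mul (by positivity)]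
        congr 1
        ring

/-- lower bound for every pair of optimal maps -/
theorem lower_bound (h01 : i0 ≠ i1) (c : ℝ) (hc0 : 0 < c) (hc : c ≤ 1 / 8)
    (Sμ Sν : EE d → EE d)
    (hμ : IsOptimalMap (uniformProbOn (Q d)) ((uniformProbOn (Q d)).map (TT i0 i1 c (-c))) Sμ)
    (hν : IsOptimalMap (uniformProbOn (Q d)) ((uniformProbOn (Q d)).map (TT i0 i1 c c)) Sν) :
    ENNReal.ofReal (c / 16) ≤ ∫⁻ x, ‖Sμ x - Sν x‖ₑ ^ 2 ∂(uniformProbOn (Q d)) := by
  have hcc : c ^ 2 + 2 * c ≤ 1 := by nlinarith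
  have hcc' : (-c) ^ 2 + 2 * c ≤ 1 := by nlinarith
  have hG : MeasurableSet (box2 i0 i1 (3 * c / 4) (5 * c / 4) (1 / 2) 1) :=
    measurableSet_box2 i0 i1 h01 _ _ _ _ (by linarith) (by linarith) (by norm_num) (by norm_num)
  have hρG : uniformProbOn (Q d) (box2 i0 i1 (3 * c / 4) (5 * c / 4) (1 / 2) 1)
      = ENNReal.ofReal (c / 16) := by
    rw [rho_box2 i0 i1 h01 _ _ _ _ (by linarith) (by linarith) (by linarith) (by norm_num)
          (by norm_num) (by norm_num)]
    congr 1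
    ring
  rw [← hρG, ← lintegral_indicator_one hG]
  apply lintegral_mono_ae
  filter_upwards [ae_eq_of_optimal h01 c (-c) hcc' Sμ hμ, ae_eq_of_optimal h01 c c hcc Sν hν]
    with x e1 e2
  by_cases hx : x ∈ box2 i0 i1 (3 * c / 4) (5 * c / 4) (1 / 2) 1
  · rw [Set.indicator_of_mem hx]
    obtain ⟨-, h0, h1⟩ := hx
    have hx0 : 0 < x i0 := by linarith [h0.1]
    have f1 : Sμ x = yR i0 := by
      apply eq_yR_of_eq h01 c (-c) hcc' x _ _ hx0 e1
      nlinarith [h0.1, h1.1]
    have f2 : Sν x = yM i1 c := by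
      apply eq_yM_of_eq h01 c c hcc x _ _ e2
      rw [abs_of_pos hx0]
      nlinarith [h0.2, h1.1]
    rw [f1, f2, enorm_sq_eq, yM, norm_sub_single_sq, yR, PiLp.norm_single]
    simp only [Pi.one_apply]
    rw [← ENNReal.ofReal_one]
    apply ENNReal.ofReal_le_ofReal
    simp [h01.symm]
    positivity
  · rw [Set.indicator_of_notMem hx]
    exact zero_le

/-- the numerical choice of the width -/
theorem exists_c (α : ℝ) (hα : 1 / 3 < α) (C : ℝ) :
    ∃ c : ℝ, 0 < c ∧ c ≤ 1 / 8 ∧ C * (8 * c ^ 3) ^ α < c / 16 := by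
  have hβ : 0 < 3 * α - 1 := by linarith
  have hcont : ContinuousAt (fun c : ℝ => C * (8:ℝ) ^ α * c ^ (3 * α - 1)) 0 :=
    continuousAt_const.mul (Real.continuousAt_rpow_const _ _ (Or.inr hβ.le))
  have h0 : (fun c : ℝ => C * (8:ℝ) ^ α * c ^ (3 * α - 1)) 0 < 1 / 16 := by
    simp only [Real.zero_rpow hβ.ne', mul_zero]
    norm_num
  have hev := hcont.eventually (gt_mem_nhds h0)
  have hev2 : ∀ᶠ c : ℝ in nhdsWithin 0 (Set.Ioi 0), c ∈ Set.Ioc (0:ℝ) (1 / 8) :=
    Ioc_mem_nhdsGT (by norm_num)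
  obtain ⟨c, hc1, hc2⟩ := ((hev.filter_mono nhdsWithin_le_nhds).and hev2).exists
  refine ⟨c, hc2.1, hc2.2, ?_⟩
  have hc := hc2.1
  have e1 : (8 * c ^ 3) ^ α = (8:ℝ) ^ α * c ^ (3 * α - 1) * c := by
    rw [Real.mul_rpow (by norm_num) (by positivity), ← Real.rpow_natCast c 3, ← Real.rpow_mul hc.le,
      mul_assoc]
    congr 1
    nth_rewrite 3 [← Real.rpow_one c]
    rw [← Real.rpow_add hc]
    congr 1
    push_cast
    ring
  rw [e1]
  have : C * (8:ℝ) ^ α * c ^ (3 * α - 1) * c < 1 / 16 * c := mul_lt_mul_of_pos_right hc1 hc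
  calc C * ((8:ℝ) ^ α * c ^ (3 * α - 1) * c) = C * (8:ℝ) ^ α * c ^ (3 * α - 1) * c := by ring
    _ < 1 / 16 * c := this
    _ = c / 16 := by ring

end Crest.Agent.OT.Sharp
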