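import Mathlib
import Crest.Prelude.Def_QuadraticTransport

/-!
# A Kantorovich-pair criterion for Monge optimality (lintegral form)

If `u x ≤ ‖x - y‖ₑ² + a y` for all `x, y`, with equality at `y = T x`, then `T` is a quadratic
optimal map from `ρ` to `ρ.map T`, and every other optimal map attains equality almost everywhere.
-/

set_option autoImplicit false
open MeasureTheory
open scoped ENNReal NNReal
open Crest.AnalysisR.OT

namespace Crest.Agent.OT.Sharp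

variable {E : Type*} [NormedAddCommGroup E] [MeasurableSpace E]

theorem lintegral_add_comp (ρ : Measure E) (S : E → E) (hS : Measurable S)
    (a : E → ℝ≥0∞) (ha : Measurable a) :
    ∫⁻ x, (‖x - S x‖ₑ ^ 2 + a (S x)) ∂ρ = ∫⁻ x, ‖x - S x‖ₑ ^ 2 ∂ρ + ∫⁻ x, a (S x) ∂ρ :=
  lintegral_add_right (fun x => ‖x - S x‖ₑ ^ 2) (g := fun x => a (S x)) (ha.comp hS)

theorem lintegral_pair_eq (ρ : Measure E) (T : E → E) (hT : Measurable T)
    (a u : E → ℝ≥0∞) (ha : Measurable a)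
    (heq : ∀ x, u x = ‖x - T x‖ₑ ^ 2 + a (T x)) :
    ∫⁻ x, ‖x - T x‖ₑ ^ 2 ∂ρ + ∫⁻ x, a (T x) ∂ρ = ∫⁻ x, u x ∂ρ := by
  rw [← lintegral_add_comp ρ T hT a ha]
  exact lintegral_congr (fun x => (heq x).symm)

omit [NormedAddCommGroup E] in
theorem lintegral_a_eq (ρ : Measure E) (T S : E → E) (hT : Measurable T) (hS : Measurable S)
    (hST : ρ.map S = ρ.map T) (a : E → ℝ≥0∞) (ha : Measurable a) :
    ∫⁻ x, a (S x) ∂ρ = ∫⁻ x, a (T x) ∂ρ := by
  rw [← lintegral_map ha hS, hST, lintegral_map ha hT]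

/-- **Kantorovich pair ⇒ optimal.** -/
theorem isOptimalMap_of_pair (ρ : Measure E) (T : E → E) (hT : Measurable T)
    (a u : E → ℝ≥0∞) (ha : Measurable a)
    (hle : ∀ x y, u x ≤ ‖x - y‖ₑ ^ 2 + a y)
    (heq : ∀ x, u x = ‖x - T x‖ₑ ^ 2 + a (T x))
    (hfin : ∫⁻ x, a (T x) ∂ρ ≠ ⊤) :
    IsOptimalMap ρ (ρ.map T) T := by
  refine ⟨hT, rfl, fun S hS hSμ => ?_⟩
  have h1 := lintegral_a_eq ρ T S hT hS hSμ a ha
  have h2 := lintegral_pair_eq ρ T hT a u ha heq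
  have h3 : ∫⁻ x, u x ∂ρ ≤ ∫⁻ x, ‖x - S x‖ₑ ^ 2 ∂ρ + ∫⁻ x, a (S x) ∂ρ := by
    rw [← lintegral_add_comp ρ S hS a ha]
    exact lintegral_mono (fun x => hle x (S x))
  rw [← h2, h1] at h3
  exact (ENNReal.add_le_add_iff_right hfin).1 h3

/-- **Kantorovich pair ⇒ every optimal map attains equality a.e.** -/
theorem ae_eq_of_isOptimalMap [BorelSpace E] [SecondCountableTopology E]
    (ρ : Measure E) (T : E → E) (hT : Measurable T)
    (a u : E → ℝ≥0∞) (ha : Measurable a)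
    (hle : ∀ x y, u x ≤ ‖x - y‖ₑ ^ 2 + a y)
    (heq : ∀ x, u x = ‖x - T x‖ₑ ^ 2 + a (T x))
    (hufin : ∫⁻ x, u x ∂ρ ≠ ⊤)
    (S : E → E) (hS : IsOptimalMap ρ (ρ.map T) S) :
    ∀ᵐ x ∂ρ, u x = ‖x - S x‖ₑ ^ 2 + a (S x) := by
  obtain ⟨hSm, hSμ, hSopt⟩ := hS
  have h1 := lintegral_a_eq ρ T S hT hSm hSμ a ha
  have h2 := lintegral_pair_eq ρ T hT a u ha heq
  have h4 := hSopt T hT rfl
  refine ae_eq_of_ae_le_of_lintegral_le (Filter.Eventually.of_forall (fun x => hle x (S x))) hufin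
    ?_ ?_
  · exact (((measurable_id.sub hSm).enorm.pow_const 2).add (ha.comp hSm)).aemeasurable
  · rw [lintegral_add_comp ρ S hSm a ha, h1, ← h2]
    gcongr

end Crest.Agent.OT.Sharp
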