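import Crest.Agent.OT.Sharp.Example

/-!
# The three-atom example: measure-level facts
-/

set_option autoImplicit false
open MeasureTheory
open scoped ENNReal NNReal
open Crest.AnalysisR.OT

namespace Crest.Agent.OT.Sharp

theorem map_ite_const {α β : Type*} [MeasurableSpace α] [MeasurableSpace β] (ρ : Measure α)
    (p : α → Prop) [DecidablePred p] (hp : MeasurableSet {x | p x}) (y : β) (g : α → β)
    (hg : Measurable g) :
    ρ.map (fun x => if p x then y else g x)
      = ρ {x | p x} • Measure.dirac y + (ρ.restrict {x | p x}ᶜ).map g := by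
  have hf : Measurable (fun x => if p x then y else g x) := Measurable.ite hp measurable_const hg
  conv_lhs => rw [← Measure.restrict_add_restrict_compl (μ := ρ) hp]
  rw [Measure.map_add _ _ hf]
  congr 1
  · have : (fun x => if p x then y else g x) =ᵐ[ρ.restrict {x | p x}] (fun _ => y) := by
      filter_upwards [ae_restrict_mem hp] with x hx
      exact if_pos hx
    rw [Measure.map_congr this, Measure.map_const]
    simp
  · have : (fun x => if p x then y else g x) =ᵐ[ρ.restrict {x | p x}ᶜ] g := by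
      filter_upwards [ae_restrict_mem hp.compl] with x hx
      exact if_neg hx
    rw [Measure.map_congr this]

variable {d : ℕ} {i0 i1 : Fin d}

theorem measurable_coord (i : Fin d) : Measurable (fun x : EE d => x i) := by fun_prop

theorem measurableSet_CM (c h : ℝ) : MeasurableSet {x : EE d | |x i0| ≤ c + h * x i1} :=
  measurableSet_le (measurable_coord i0).abs
    (measurable_const.add (measurable_const.mul (measurable_coord i1)))

theorem measurableSet_neg0 : MeasurableSet {x : EE d | x i0 < 0} :=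
  measurableSet_lt (measurable_coord i0) measurable_const

theorem measurable_TT (c h : ℝ) : Measurable (TT i0 i1 c h) :=
  Measurable.ite (measurableSet_CM c h) measurable_const
    (Measurable.ite measurableSet_neg0 measurable_const measurable_const)

theorem measurable_aa (c h : ℝ) : Measurable (aa i0 i1 c h) :=
  Measurable.ite (measurableSet_eq) measurable_const
    (Measurable.ite (measurableSet_eq) measurable_const
      (Measurable.ite (measurableSet_eq) measurable_const measurable_const))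

/-- the push-forward is a sum of three Dirac masses -/
theorem map_TT (ρ : Measure (EE d)) (c h : ℝ) :
    ρ.map (TT i0 i1 c h) =
      ρ {x : EE d | |x i0| ≤ c + h * x i1} • Measure.dirac (yM i1 h)
      + (ρ ({x : EE d | x i0 < 0} ∩ {x : EE d | |x i0| ≤ c + h * x i1}ᶜ) • Measure.dirac (yL i0)
      + ρ ({x : EE d | x i0 < 0}ᶜ ∩ {x : EE d | |x i0| ≤ c + h * x i1}ᶜ)
          • Measure.dirac (yR i0)) := by
  have h1 := map_ite_const ρ (fun x : EE d => |x i0| ≤ c + h * x i1) (measurableSet_CM c h)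
    (yM i1 h) (fun x => if x i0 < 0 then yL i0 else yR i0)
    (Measurable.ite measurableSet_neg0 measurable_const measurable_const)
  have h2 := map_ite_const (ρ.restrict {x : EE d | |x i0| ≤ c + h * x i1}ᶜ)
    (fun x : EE d => x i0 < 0) measurableSet_neg0
    (yL i0) (fun _ => yR i0) measurable_const
  rw [Measure.map_const, Measure.restrict_apply measurableSet_neg0,
    Measure.restrict_apply MeasurableSet.univ, Set.univ_inter,
    Measure.restrict_apply measurableSet_neg0.compl] at h2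
  rw [h2] at h1
  exact h1

/-! ### positivity of the three masses -/

theorem abs_h_mul_le (c h t b : ℝ) (hh : |h| ≤ c) (ht : |t| ≤ b) : |h * t| ≤ c * b := by
  rw [abs_mul]
  exact mul_le_mul hh ht (abs_nonneg _) ((abs_nonneg _).trans hh)

theorem rho_CM_pos (h01 : i0 ≠ i1) (c h : ℝ) (hc0 : 0 < c) (hc : c ≤ 1 / 8) (hh : |h| ≤ c) :
    0 < uniformProbOn (Q d) {x : EE d | |x i0| ≤ c + h * x i1} := by
  have hsub : box2 i0 i1 (-(c / 2)) (c / 2) (-(1 / 2)) (1 / 2)
      ⊆ {x : EE d | |x i0| ≤ c + h * x i1} := by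
    rintro x ⟨-, h0, h1⟩
    have e1 : |x i0| ≤ c / 2 := abs_le.2 h0
    have e2 := abs_h_mul_le c h (x i1) (1 / 2) hh (abs_le.2 h1)
    have e3 := neg_abs_le (h * x i1)
    show |x i0| ≤ c + h * x i1
    linarith
  refine lt_of_lt_of_le ?_ (measure_mono hsub)
  rw [rho_box2 i0 i1 h01 _ _ _ _ (by linarith) (by linarith) (by linarith) (by norm_num)
    (by norm_num) (by norm_num)]
  apply ENNReal.ofReal_pos.2
  norm_num
  exact hc0

theorem rho_CL_pos (h01 : i0 ≠ i1) (c h : ℝ) (hc : c ≤ 1 / 8) (hh : |h| ≤ c) :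
    0 < uniformProbOn (Q d)
      ({x : EE d | x i0 < 0} ∩ {x : EE d | |x i0| ≤ c + h * x i1}ᶜ) := by
  have hsub : box2 i0 i1 (-1) (-(1 / 2)) (-1) 1
      ⊆ {x : EE d | x i0 < 0} ∩ {x : EE d | |x i0| ≤ c + h * x i1}ᶜ := by
    rintro x ⟨-, h0, h1⟩
    have e0 : x i0 < 0 := by linarith [h0.2]
    refine ⟨e0, ?_⟩
    have e2 := abs_h_mul_le c h (x i1) 1 hh (abs_le.2 h1)
    have e3 := le_abs_self (h * x i1)
    show ¬ |x i0| ≤ c + h * x i1
    rw [abs_of_neg e0]
    intro e4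
    linarith [h0.2]
  refine lt_of_lt_of_le ?_ (measure_mono hsub)
  rw [rho_box2 i0 i1 h01 _ _ _ _ (by norm_num) (by norm_num) (by norm_num) (by norm_num)
    (by norm_num) (by norm_num)]
  apply ENNReal.ofReal_pos.2
  norm_num

theorem rho_CR_pos (h01 : i0 ≠ i1) (c h : ℝ) (hc : c ≤ 1 / 8) (hh : |h| ≤ c) :
    0 < uniformProbOn (Q d)
      ({x : EE d | x i0 < 0}ᶜ ∩ {x : EE d | |x i0| ≤ c + h * x i1}ᶜ) := by
  have hsub : box2 i0 i1 (1 / 2) 1 (-1) 1
      ⊆ {x : EE d | x i0 < 0}ᶜ ∩ {x : EE d | |x i0| ≤ c + h * x i1}ᶜ := by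
    rintro x ⟨-, h0, h1⟩
    have e0 : 0 < x i0 := by linarith [h0.1]
    refine ⟨not_lt.2 e0.le, ?_⟩
    have e2 := abs_h_mul_le c h (x i1) 1 hh (abs_le.2 h1)
    have e3 := le_abs_self (h * x i1)
    show ¬ |x i0| ≤ c + h * x i1
    rw [abs_of_pos e0]
    intro e4
    linarith [h0.1]
  refine lt_of_lt_of_le ?_ (measure_mono hsub)
  rw [rho_box2 i0 i1 h01 _ _ _ _ (by norm_num) (by norm_num) (by norm_num) (by norm_num)
    (by norm_num) (by norm_num)]
  apply ENNReal.ofReal_pos.2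
  norm_num

theorem isThreeAtomic_map_TT (h01 : i0 ≠ i1) (c h : ℝ) (hc0 : 0 < c) (hc : c ≤ 1 / 8)
    (hh : |h| ≤ c) : IsThreeAtomic ((uniformProbOn (Q d)).map (TT i0 i1 c h)) := by
  set ρ := uniformProbOn (Q d) with hρ
  refine ⟨![yM i1 h, yL i0, yR i0], ?_,
    ![(ρ {x : EE d | |x i0| ≤ c + h * x i1}).toReal,
      (ρ ({x : EE d | x i0 < 0} ∩ {x : EE d | |x i0| ≤ c + h * x i1}ᶜ)).toReal,
      (ρ ({x : EE d | x i0 < 0}ᶜ ∩ {x : EE d | |x i0| ≤ c + h * x i1}ᶜ)).toReal], ?_, ?_⟩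
  · have a1 := yL_ne_yM h01 h
    have a2 := yR_ne_yM h01 h
    have a3 := yL_ne_yR (i0 := i0)
    intro i j hij
    fin_cases i <;> fin_cases j <;> simp_all [eq_comm]
  · intro i
    fin_cases i
    · exact ENNReal.toReal_pos (rho_CM_pos h01 c h hc0 hc hh).ne' (measure_ne_top _ _)
    · exact ENNReal.toReal_pos (rho_CL_pos h01 c h hc hh).ne' (measure_ne_top _ _)
    · exact ENNReal.toReal_pos (rho_CR_pos h01 c h hc hh).ne' (measure_ne_top _ _)
  · rw [map_TT, Fin.sum_univ_three]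
    simp only [Matrix.cons_val_zero, Matrix.cons_val_one, Matrix.cons_val_two,
      Matrix.head_cons, Matrix.tail_cons, ENNReal.ofReal_toReal (measure_ne_top _ _)]
    rw [add_assoc]

/-! ### values in the cube -/

theorem single_mem_Q (i : Fin d) (t : ℝ) (ht : |t| ≤ 1) :
    (EuclideanSpace.single i t : EE d) ∈ Q d := by
  intro j
  rw [PiLp.single_apply]
  split_ifs
  · exact ht
  · simp

theorem TT_mem_Q (c h : ℝ) (hh : |h| ≤ 1) (x : EE d) : TT i0 i1 c h x ∈ Q d := by
  unfold TT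
  split_ifs
  · exact single_mem_Q _ _ hh
  · exact single_mem_Q _ _ (by norm_num)
  · exact single_mem_Q _ _ (by norm_num)

theorem isProbabilityOn_map_TT (c h : ℝ) (hh : |h| ≤ 1) :
    IsProbabilityOn (Q d) ((uniformProbOn (Q d)).map (TT i0 i1 c h)) := by
  refine ⟨Measure.isProbabilityMeasure_map (measurable_TT c h).aemeasurable, ?_⟩
  rw [Measure.map_apply (measurable_TT c h) (measurableSet_Q d).compl]
  have : TT i0 i1 c h ⁻¹' (Q d)ᶜ = ∅ := by
    ext x
    simp only [Set.mem_preimage, Set.mem_compl_iff, Set.mem_empty_iff_false, iff_false, not_not]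
    exact TT_mem_Q c h hh x
  rw [this, measure_empty]

/-! ### finiteness -/

theorem aa_TT_le_one (h01 : i0 ≠ i1) (c h : ℝ) (hc0 : 0 ≤ c) (x : EE d) :
    aa i0 i1 c h (TT i0 i1 c h x) ≤ 1 := by
  unfold TT
  split_ifs
  · rw [aa, if_pos rfl]
    rw [← ENNReal.ofReal_one]
    apply ENNReal.ofReal_le_ofReal
    nlinarith [sq_nonneg h]
  · rw [aa, if_neg (yL_ne_yM h01 h), if_pos rfl]; exact zero_le
  · rw [aa, if_neg (yR_ne_yM h01 h), if_neg yL_ne_yR.symm, if_pos rfl]; exact zero_le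

theorem lintegral_aa_TT_ne_top (h01 : i0 ≠ i1) (c h : ℝ) (hc0 : 0 ≤ c) :
    ∫⁻ x, aa i0 i1 c h (TT i0 i1 c h x) ∂(uniformProbOn (Q d)) ≠ ⊤ := by
  have : ∫⁻ x, aa i0 i1 c h (TT i0 i1 c h x) ∂(uniformProbOn (Q d))
      ≤ ∫⁻ _x, 1 ∂(uniformProbOn (Q d)) := lintegral_mono (fun x => aa_TT_le_one h01 c h hc0 x)
  rw [lintegral_one, measure_univ] at this
  exact ne_top_of_le_ne_top ENNReal.one_ne_top this

theorem norm_sq_le_of_mem_Q (x : EE d) (hx : x ∈ Q d) : ‖x‖ ^ 2 ≤ d := by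
  rw [EuclideanSpace.real_norm_sq_eq]
  calc ∑ i, x i ^ 2 ≤ ∑ _i : Fin d, (1 : ℝ) := by
        apply Finset.sum_le_sum
        intro i _
        have := hx i
        rw [← sq_abs]
        nlinarith [abs_nonneg (x i)]
    _ = d := by simp

theorem lintegral_uu_ne_top (h01 : i0 ≠ i1) (c h : ℝ) (hc : h ^ 2 + 2 * c ≤ 1) :
    ∫⁻ x, uu i0 i1 c h x ∂(uniformProbOn (Q d)) ≠ ⊤ := by
  have : ∫⁻ x, uu i0 i1 c h x ∂(uniformProbOn (Q d))
      ≤ ∫⁻ _x, ENNReal.ofReal (d + 3) ∂(uniformProbOn (Q d)) := by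
    apply lintegral_mono_ae
    filter_upwards [ae_mem_Q d] with x hx
    have h1 := uu_le h01 c h hc x (yR i0)
    rw [K_R h01] at h1
    refine h1.trans (ENNReal.ofReal_le_ofReal ?_)
    have h2 := norm_sq_le_of_mem_Q x hx
    have h3 := (abs_le.1 (hx i0)).1
    linarith
  rw [lintegral_const, measure_univ, mul_one] at this
  exact ne_top_of_le_ne_top ENNReal.ofReal_ne_top this

/-! ### optimality and rigidity -/

theorem isOptimalMap_TT (h01 : i0 ≠ i1) (c h : ℝ) (hc0 : 0 ≤ c) (hc : h ^ 2 + 2 * c ≤ 1) :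
    IsOptimalMap (uniformProbOn (Q d)) ((uniformProbOn (Q d)).map (TT i0 i1 c h))
      (TT i0 i1 c h) :=
  isOptimalMap_of_pair _ _ (measurable_TT c h) (aa i0 i1 c h) (uu i0 i1 c h) (measurable_aa c h)
    (uu_le h01 c h hc) (fun _ => rfl) (lintegral_aa_TT_ne_top h01 c h hc0)

theorem ae_eq_of_optimal (h01 : i0 ≠ i1) (c h : ℝ) (hc : h ^ 2 + 2 * c ≤ 1)
    (S : EE d → EE d)
    (hS : IsOptimalMap (uniformProbOn (Q d)) ((uniformProbOn (Q d)).map (TT i0 i1 c h)) S) :
    ∀ᵐ x ∂(uniformProbOn (Q d)), uu i0 i1 c h x = ‖x - S x‖ₑ ^ 2 + aa i0 i1 c h (S x) :=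
  ae_eq_of_isOptimalMap _ _ (measurable_TT c h) (aa i0 i1 c h) (uu i0 i1 c h) (measurable_aa c h)
    (uu_le h01 c h hc) (fun _ => rfl) (lintegral_uu_ne_top h01 c h hc) S hS

end Crest.Agent.OT.Sharp
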